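import Vale.Agent.P207.N4.H722.GeoIn
import Vale.Agent.P207.N4.H459.Inv

/-!
# P207, all dimensions: the angle between a geodesic and the geodesics from another end point

`ca I x ξ = cos θ`, where `θ` is the angle, at the foot point of `x`, between the geodesic of `x`
and the geodesic which comes from `ξ`. Along the geodesic of `x`, `c' = ⟨U v, v⟩` with
`|v|² = 1 - c²`. If `a ≤ U ≤ b`, then `tan² (θ / 2)` is multiplied in the time `s ≥ 0` by a number
between `e^{-2bs}` and `e^{-2as}`.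
-/

open Set Filter Topology Metric
open scoped ContDiff

set_option linter.unusedSectionVars false

noncomputable section

namespace Vale.Agent.P207.N4.H832

open Vale.Agent.P207.N3

variable [Dim]

open Vale.Agent.P207.N4.H76 (pk tl e0 sg)
open Vale.Agent.P207.N4.H722 (GeoIn)

/-! ### scalar part -/

section scalar

/-- two-sided rate for the equation `c' = k (1 - c²)`, `a ≤ k ≤ b` -/
theorem scalar_rate {c c' : ℝ → ℝ} {a b : ℝ} (ha : 0 ≤ a) (hc : ∀ s, HasDerivAt c (c' s) s)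
    (hlo : ∀ s, a * (1 - c s ^ 2) ≤ c' s) (hhi : ∀ s, c' s ≤ b * (1 - c s ^ 2))
    (hle : ∀ s, c s ^ 2 ≤ 1) (h0 : 0 < c 0) : ∀ s, 0 ≤ s → c 0 ≤ c s ∧
      1 - c s ^ 2 ≤ 4 * Real.exp (-(2 * a * s)) * (1 - c 0 ^ 2) ∧
      1 - c 0 ^ 2 ≤ 4 * Real.exp (2 * b * s) * (1 - c s ^ 2) := by
  have hmono : MonotoneOn c (Ici 0) := by
    refine monotoneOn_of_deriv_nonneg (convex_Ici 0)
      (fun s _ => (hc s).continuousAt.continuousWithinAt)
      (fun s _ => (hc s).differentiableAt.differentiableWithinAt) fun s _ => ?_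
    rw [(hc s).deriv]
    exact (mul_nonneg ha (by linarith [hle s])).trans (hlo s)
  have hpos : ∀ s, 0 ≤ s → 0 < c s := fun s hs =>
    h0.trans_le (hmono (mem_Ici.2 le_rfl) (mem_Ici.2 hs) hs)
  have hle1 : ∀ s, c s ≤ 1 := fun s => by nlinarith [hle s]
  set w : ℝ → ℝ := fun s => (1 - c s) / (1 + c s) with hw
  have hwd : ∀ s, 0 ≤ s → HasDerivAt w (-(2 * c' s) / (1 + c s) ^ 2) s := by
    intro s hs
    have h1 : 1 + c s ≠ 0 := by linarith [hpos s hs]
    have h2 := ((hc s).const_sub 1).div ((hc s).const_add 1) h1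
    refine h2.congr_deriv ?_
    congr 1
    ring
  have hwn : ∀ s, 0 ≤ s → 0 ≤ w s := fun s hs =>
    div_nonneg (by linarith [hle1 s]) (by linarith [hpos s hs])
  -- `w` against `1 - c²`
  have hw1 : ∀ s, 0 ≤ s → w s * (1 + c s) ^ 2 = 1 - c s ^ 2 := by
    intro s hs
    have h1 : 1 + c s ≠ 0 := by linarith [hpos s hs]
    rw [hw]
    field_simp
    ring
  have hwle : ∀ s, 0 ≤ s → w s ≤ 1 - c s ^ 2 := by
    intro s hs
    rw [← hw1 s hs]
    have h2 := hwn s hs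
    have h3 := hpos s hs
    nlinarith [mul_nonneg h2 h3.le, mul_nonneg (mul_nonneg h2 h3.le) h3.le]
  have hwge : ∀ s, 0 ≤ s → 1 - c s ^ 2 ≤ 4 * w s := by
    intro s hs
    rw [← hw1 s hs]
    have h2 := hwn s hs
    have h3 := hpos s hs
    have h4 := hle1 s
    have h5 : (1 + c s) ^ 2 ≤ 4 := by nlinarith
    nlinarith [mul_le_mul_of_nonneg_left h5 h2]
  have hd1 : ∀ s, 0 ≤ s → -(2 * c' s) / (1 + c s) ^ 2 ≤ -(2 * a) * w s := by
    intro s hs
    have h1 : 0 < (1 + c s) ^ 2 := by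
      have := hpos s hs
      positivity
    rw [div_le_iff₀ h1, mul_assoc, hw1 s hs]
    linarith [hlo s]
  have hd2 : ∀ s, 0 ≤ s → -(2 * b) * w s ≤ -(2 * c' s) / (1 + c s) ^ 2 := by
    intro s hs
    have h1 : 0 < (1 + c s) ^ 2 := by
      have := hpos s hs
      positivity
    rw [le_div_iff₀ h1, mul_assoc, hw1 s hs]
    linarith [hhi s]
  have hexp : ∀ k s : ℝ, HasDerivAt (fun s : ℝ => Real.exp (k * s)) (Real.exp (k * s) * k) s := by
    intro k s
    have := ((hasDerivAt_id s).const_mul k).exp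
    simpa using this
  have hA : AntitoneOn (fun s => w s * Real.exp (2 * a * s)) (Ici 0) := by
    refine antitoneOn_of_deriv_nonpos (convex_Ici 0)
      (fun s hs => ((hwd s hs).mul (hexp (2 * a) s)).continuousAt.continuousWithinAt)
      (fun s hs => ?_) fun s hs => ?_
    · rw [interior_Ici] at hs
      exact ((hwd s hs.le).mul (hexp (2 * a) s)).differentiableAt.differentiableWithinAt
    · rw [interior_Ici] at hs
      have h1 := ((hwd s hs.le).mul (hexp (2 * a) s)).deriv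
      rw [show (fun s => w s * Real.exp (2 * a * s)) = w * fun s => Real.exp (2 * a * s) from rfl,
        h1]
      have h2 := hd1 s hs.le
      have h3 := Real.exp_pos (2 * a * s)
      nlinarith
  have hM : MonotoneOn (fun s => w s * Real.exp (2 * b * s)) (Ici 0) := by
    refine monotoneOn_of_deriv_nonneg (convex_Ici 0)
      (fun s hs => ((hwd s hs).mul (hexp (2 * b) s)).continuousAt.continuousWithinAt)
      (fun s hs => ?_) fun s hs => ?_
    · rw [interior_Ici] at hs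
      exact ((hwd s hs.le).mul (hexp (2 * b) s)).differentiableAt.differentiableWithinAt
    · rw [interior_Ici] at hs
      have h1 := ((hwd s hs.le).mul (hexp (2 * b) s)).deriv
      rw [show (fun s => w s * Real.exp (2 * b * s)) = w * fun s => Real.exp (2 * b * s) from rfl,
        h1]
      have h2 := hd2 s hs.le
      have h3 := Real.exp_pos (2 * b * s)
      nlinarith
  intro s hs
  refine ⟨hmono (mem_Ici.2 le_rfl) (mem_Ici.2 hs) hs, ?_, ?_⟩
  · have h1 := hA (mem_Ici.2 le_rfl) (mem_Ici.2 hs) hs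
    simp only [mul_zero, Real.exp_zero, mul_one] at h1
    have h2 : w s ≤ Real.exp (-(2 * a * s)) * w 0 := by
      rw [Real.exp_neg, ← div_eq_inv_mul, le_div_iff₀ (Real.exp_pos _)]
      exact h1
    calc 1 - c s ^ 2 ≤ 4 * w s := hwge s hs
      _ ≤ 4 * (Real.exp (-(2 * a * s)) * w 0) := by linarith
      _ ≤ 4 * (Real.exp (-(2 * a * s)) * (1 - c 0 ^ 2)) := by
          gcongr
          exact hwle 0 le_rfl
      _ = _ := by ring
  · have h1 := hM (mem_Ici.2 le_rfl) (mem_Ici.2 hs) hs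
    simp only [mul_zero, Real.exp_zero, mul_one] at h1
    calc 1 - c 0 ^ 2 ≤ 4 * w 0 := hwge 0 le_rfl
      _ ≤ 4 * (w s * Real.exp (2 * b * s)) := by linarith
      _ ≤ 4 * ((1 - c s ^ 2) * Real.exp (2 * b * s)) := by
          gcongr
          exact hwle s hs
      _ = _ := by ring

end scalar

/-! ### the geometric part -/

variable {Γ X B : Type} [Group Γ] [MetricSpace X] [ProperSpace X] [MulAction Γ X]
  [IsIsometricSMul Γ X] [TopologicalSpace B] [CompactSpace B] [T2Space B] [MulAction Γ B]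
  [ContinuousConstSMul Γ B] {L : Leaf Γ X B} {V : Type} [NormedAddCommGroup V] [NormedSpace ℝ V]
  [FiniteDimensional ℝ V] (I : GeoIn L V)

/-- The connection (the fields of `H618.Conn`, as hypotheses). -/
structure Cov (U : X → E2 →L[ℝ] E2) (Gam : V → V →L[ℝ] V →L[ℝ] V) : Prop where
  E_deriv : ∀ x c t, HasDerivAt (fun s => I.E (L.φ s x) c)
    (-(Gam (I.S.ft (L.φ t x)) (I.E (L.φ t x) e0) (I.E (L.φ t x) c))) t
  core : ∀ x v, fderiv ℝ (I.vel (L.em x)) (I.S.ft x) (I.E x (pk 0 v)) =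
    I.E x (pk 0 (U x v)) - Gam (I.S.ft x) (I.E x (pk 0 v)) (I.E x e0)

/-- the direction from `ξ` in the frame `x` -/
def kap (x : X) (ξ : B) : E3 := (I.EE x).symm (I.vel ξ (I.S.ft x))

/-- the cosine of the angle between the geodesic of `x` and the direction from `ξ` -/
def ca (x : X) (ξ : B) : ℝ := kap I x ξ 0

theorem E_kap (x : X) (ξ : B) : I.E x (kap I x ξ) = I.vel ξ (I.S.ft x) :=
  (I.EE x).apply_symm_apply _

theorem norm_kap (x : X) (ξ : B) : ‖kap I x ξ‖ = 1 := by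
  have h1 := I.G_E x (kap I x ξ) (kap I x ξ)
  rw [E_kap, I.G_vel H459.invThm, real_inner_self_eq_norm_sq] at h1
  have h2 := norm_nonneg (kap I x ξ)
  nlinarith

theorem ca_sq (x : X) (ξ : B) : ca I x ξ ^ 2 + ‖tl (kap I x ξ)‖ ^ 2 = 1 := by
  have h := H76.norm_sq (kap I x ξ)
  rw [norm_kap, one_pow] at h
  exact h.symm

theorem ca_sq_le (x : X) (ξ : B) : ca I x ξ ^ 2 ≤ 1 := by
  have := ca_sq I x ξ
  nlinarith [sq_nonneg ‖tl (kap I x ξ)‖]

theorem inner_e0 (v : E3) : inner ℝ v e0 = v 0 := by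
  rw [PiLp.inner_apply, Fin.sum_univ_succ]
  simp [e0]

theorem inner_pk_zero (u : E2) (v : E3) : inner ℝ (pk 0 u) v = inner ℝ u (tl v) := by
  rw [PiLp.inner_apply, PiLp.inner_apply, Fin.sum_univ_succ]
  simp

theorem ca_eq (x : X) (ξ : B) : ca I x ξ = I.G (I.S.ft x) (I.vel ξ (I.S.ft x)) (I.E x e0) := by
  rw [← E_kap, I.G_E, inner_e0]
  rfl

theorem ca_em (x : X) : ca I x (L.em x) = 1 := by
  rw [ca_eq, I.vel_eq H459.invThm, I.G_E, inner_e0]
  rfl

/-- symmetry: the cosine at a common foot point -/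
theorem ca_comm {x y : X} (h : I.S.ft x = I.S.ft y) : ca I x (L.em y) = ca I y (L.em x) := by
  have hs : ∀ v w, I.G (I.S.ft x) v w = I.G (I.S.ft x) w v := by
    intro v w
    obtain ⟨c, rfl⟩ := (I.E_bij x).2 v
    obtain ⟨c', rfl⟩ := (I.E_bij x).2 w
    rw [I.G_E, I.G_E, real_inner_comm]
  rw [ca_eq, ca_eq, ← h, ← I.vel_eq H459.invThm x, hs, h, I.vel_eq H459.invThm y]

variable {I} {U : X → E2 →L[ℝ] E2} {Gam : V → V →L[ℝ] V →L[ℝ] V} (hC : Cov I U Gam)

include hC in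
/-- the covariant derivative of the field of directions from `em y`, in all directions -/
theorem Cov.deriv_vel (y : X) (τ : E3) :
    fderiv ℝ (I.vel (L.em y)) (I.S.ft y) (I.E y τ) =
      I.E y (pk 0 (U y (tl τ))) - Gam (I.S.ft y) (I.E y τ) (I.E y e0) := by
  have hd : DifferentiableAt ℝ (I.vel (L.em y)) (I.S.ft y) :=
    (I.vel_jc H459.invThm).differentiableAt (p := (L.em y, I.S.ft y)) (mem_univ _)
  -- along the geodesic
  have h1 : fderiv ℝ (I.vel (L.em y)) (I.S.ft y) (I.E y e0) =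
      -(Gam (I.S.ft y) (I.E y e0) (I.E y e0)) := by
    have h2 := hC.E_deriv y e0 0
    rw [L.φ_zero] at h2
    have h3 : (fun s => I.E (L.φ s y) e0) = fun s => I.vel (L.em y) (I.S.ft (L.φ s y)) := by
      funext s
      rw [← I.vel_eq H459.invThm (L.φ s y), L.em_φ]
    rw [h3] at h2
    have h4 := I.hasDerivAt_ft y 0
    rw [L.φ_zero] at h4
    have h5 : HasFDerivAt (I.vel (L.em y)) (fderiv ℝ (I.vel (L.em y)) (I.S.ft y))
        (I.S.ft (L.φ 0 y)) := by
      rw [L.φ_zero]; exact hd.hasFDerivAt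
    exact (h5.comp_hasDerivAt (0 : ℝ) h4).unique h2
  have h6 : τ = τ 0 • e0 + pk 0 (tl τ) := by
    conv_lhs => rw [← H76.pk_tl τ]
    rw [e0, ← H76.pk_smul, ← H76.pk_add]
    simp
  have h7 : I.E y τ = τ 0 • I.E y e0 + I.E y (pk 0 (tl τ)) := by
    conv_lhs => rw [h6]
    rw [map_add, map_smul]
  rw [h7, map_add, map_smul, h1, hC.core, map_add, map_smul, add_apply, smul_apply]
  rw [smul_neg]
  abel

omit [Dim] in
theorem hd_bil {V : Type} [NormedAddCommGroup V] [NormedSpace ℝ V] {G : V → V →L[ℝ] V →L[ℝ] ℝ}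
    (hG : ContDiff ℝ ∞ G) {q R T : ℝ → V} {q' R' T' : V} {s : ℝ} (hq : HasDerivAt q q' s)
    (hR : HasDerivAt R R' s) (hT : HasDerivAt T T' s) (h0 : R s = 0) :
    HasDerivAt (fun s => G (q s) (R s) (T s)) (G (q s) R' (T s)) s := by
  have hGd := (hG.differentiable (by simp) (q s)).hasFDerivAt
  have h1 := hGd.comp_hasDerivAt s hq
  refine ((h1.clm_apply hR).clm_apply hT).congr_deriv ?_
  simp [h0]

include hC in
/-- **the derivative of the angle** -/
theorem Cov.hasDerivAt_ca (x : X) (ξ : B) (s : ℝ) : ∃ (y : X) (v : E2),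
    ‖v‖ ^ 2 = 1 - ca I (L.φ s x) ξ ^ 2 ∧
    HasDerivAt (fun s => ca I (L.φ s x) ξ) (inner ℝ (U y v) v) s := by
  obtain ⟨y, hy, hq, -⟩ := I.exists_frame ξ (I.S.ft (L.φ s x))
  set z := L.φ s x with hz
  set τ : E3 := (I.EE y).symm (I.E z e0) with hτ
  have hEτ : I.E y τ = I.E z e0 := (I.EE y).apply_symm_apply _
  have hvy : I.vel ξ (I.S.ft z) = I.E y e0 := by
    rw [← hq, ← hy, I.vel_eq H459.invThm]
  have hτ0 : τ 0 = ca I z ξ := by
    rw [ca_eq, hvy, ← hEτ, ← hq, I.G_E, real_inner_comm, inner_e0]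
  have hτn : ‖τ‖ = 1 := by
    have h1 := I.G_E y τ τ
    rw [hEτ, hq, I.G_E, real_inner_self_eq_norm_sq, real_inner_self_eq_norm_sq, H76.norm_e0] at h1
    have h2 := norm_nonneg τ
    nlinarith
  refine ⟨y, tl τ, ?_, ?_⟩
  · have h1 := H76.norm_sq τ
    rw [hτn, hτ0] at h1
    linarith
  -- the curve
  have hq' : HasDerivAt (fun s => I.S.ft (L.φ s x)) (I.E z e0) s := I.hasDerivAt_ft x s
  have hT : HasDerivAt (fun s => I.E (L.φ s x) e0)
      (-(Gam (I.S.ft z) (I.E z e0) (I.E z e0))) s := hC.E_deriv x e0 s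
  set k₀ : E3 := kap I z ξ with hk₀
  have hR : HasDerivAt (fun s => I.vel ξ (I.S.ft (L.φ s x)) - I.E (L.φ s x) k₀)
      (I.E y (pk 0 (U y (tl τ)))) s := by
    have hd : DifferentiableAt ℝ (I.vel ξ) (I.S.ft z) :=
      (I.vel_jc H459.invThm).differentiableAt (p := (ξ, I.S.ft z)) (mem_univ _)
    have h1 : HasDerivAt (fun s => I.vel ξ (I.S.ft (L.φ s x)))
        (fderiv ℝ (I.vel ξ) (I.S.ft z) (I.E z e0)) s :=
      hd.hasFDerivAt.comp_hasDerivAt s hq'
    have h2 := h1.sub (hC.E_deriv x k₀ s)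
    refine h2.congr_deriv ?_
    have h3 := hC.deriv_vel y τ
    rw [hy, hq, hEτ] at h3
    rw [h3, ← hz, hk₀, E_kap, hvy]
    abel
  have hR0 : I.vel ξ (I.S.ft (L.φ s x)) - I.E (L.φ s x) k₀ = 0 := by
    rw [← hz, hk₀, E_kap, sub_self]
  have h4 := hd_bil I.G_smooth hq' hR hT hR0
  have h5 : (fun s => ca I (L.φ s x) ξ) = fun s =>
      I.G (I.S.ft (L.φ s x)) (I.vel ξ (I.S.ft (L.φ s x)) - I.E (L.φ s x) k₀)
        (I.E (L.φ s x) e0) + k₀ 0 := by
    funext r
    have h6 : I.G (I.S.ft (L.φ r x)) (I.E (L.φ r x) k₀) (I.E (L.φ r x) e0) = k₀ 0 := by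
      rw [I.G_E, inner_e0]
    rw [ca_eq, ← h6, map_sub, sub_apply, sub_add_cancel]
  rw [h5]
  refine (h4.add_const (k₀ 0)).congr_deriv ?_
  rw [← hz, ← hEτ, ← hq, I.G_E, inner_pk_zero]

include hC in
/-- **the rate of the angle** -/
theorem Cov.ca_rate {a b : ℝ} (ha : 0 ≤ a) (hlo : ∀ x v, a * ‖v‖ ^ 2 ≤ inner ℝ (U x v) v)
    (hhi : ∀ x v, inner ℝ (U x v) v ≤ b * ‖v‖ ^ 2) {x : X} {ξ : B} (h0 : 0 < ca I x ξ) {s : ℝ}
    (hs : 0 ≤ s) : ca I x ξ ≤ ca I (L.φ s x) ξ ∧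
      1 - ca I (L.φ s x) ξ ^ 2 ≤ 4 * Real.exp (-(2 * a * s)) * (1 - ca I x ξ ^ 2) ∧
      1 - ca I x ξ ^ 2 ≤ 4 * Real.exp (2 * b * s) * (1 - ca I (L.φ s x) ξ ^ 2) := by
  choose y v hv hd using fun s => hC.hasDerivAt_ca x ξ s
  have h := scalar_rate (c := fun s => ca I (L.φ s x) ξ) (a := a) (b := b) ha hd
    (fun s => by rw [← hv s]; exact hlo _ _) (fun s => by rw [← hv s]; exact hhi _ _)
    (fun s => ca_sq_le I _ ξ) (by simp only [L.φ_zero]; exact h0) s hs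
  simp only [L.φ_zero] at h
  exact h

include hC in
/-- the rate of the tangential part -/
theorem Cov.tl_rate {a b : ℝ} (ha : 0 ≤ a) (hlo : ∀ x v, a * ‖v‖ ^ 2 ≤ inner ℝ (U x v) v)
    (hhi : ∀ x v, inner ℝ (U x v) v ≤ b * ‖v‖ ^ 2) {x : X} {ξ : B} (h0 : 0 < ca I x ξ) {s : ℝ}
    (hs : 0 ≤ s) : 0 < ca I (L.φ s x) ξ ∧
      ‖tl (kap I (L.φ s x) ξ)‖ ≤ 2 * Real.exp (-(a * s)) * ‖tl (kap I x ξ)‖ ∧
      ‖tl (kap I x ξ)‖ ≤ 2 * Real.exp (b * s) * ‖tl (kap I (L.φ s x) ξ)‖ := by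
  obtain ⟨h1, h2, h3⟩ := hC.ca_rate ha hlo hhi h0 hs
  have e1 : 1 - ca I (L.φ s x) ξ ^ 2 = ‖tl (kap I (L.φ s x) ξ)‖ ^ 2 := by
    linarith [ca_sq I (L.φ s x) ξ]
  have e2 : 1 - ca I x ξ ^ 2 = ‖tl (kap I x ξ)‖ ^ 2 := by linarith [ca_sq I x ξ]
  rw [e1, e2] at h2 h3
  have key : ∀ k : ℝ, 4 * Real.exp (2 * k) = (2 * Real.exp k) ^ 2 := by
    intro k
    rw [mul_pow, ← Real.exp_nat_mul]
    norm_num
  refine ⟨h0.trans_le h1, ?_, ?_⟩
  · have h4 : -(2 * a * s) = 2 * (-(a * s)) := by ring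
    rw [h4, key, ← mul_pow] at h2
    exact (pow_le_pow_iff_left₀ (norm_nonneg _) (by positivity) two_ne_zero).1 h2
  · have h4 : 2 * b * s = 2 * (b * s) := by ring
    rw [h4, key, ← mul_pow] at h3
    exact (pow_le_pow_iff_left₀ (norm_nonneg _) (by positivity) two_ne_zero).1 h3

/-! ### the gradient of the Busemann functions on the discs -/

variable (I) in
/-- the gradient of `b_ξ` on the disc of `x`, at the center -/
theorem hasGradientAt_disc (x : X) (ξ : B) :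
    HasGradientAt (fun q : E2 => I.b ξ (I.S.A x (0, q)) - I.b ξ (I.S.ft x))
      (I.r₀ • tl (kap I x ξ)) 0 := by
  have h1 : HasFDerivAt (I.S.A x) (fderiv ℝ (I.S.A x) 0) ((0 : ℝ), (0 : E2)) :=
    (I.S.A_jc.differentiableAt (I.S.mem_S x 0 I.S.zero_mem)).hasFDerivAt
  have h2 : HasFDerivAt (fun q : E2 => ((0, q) : ℝ × E2)) (ContinuousLinearMap.inr ℝ ℝ E2) 0 :=
    hasFDerivAt_prodMk_right 0 0
  have h3 := h1.comp (0 : E2) h2
  have h4 : HasFDerivAt (I.b ξ) (I.G (I.S.ft x) (I.vel ξ (I.S.ft x)))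
      ((I.S.A x ∘ fun q : E2 => ((0, q) : ℝ × E2)) 0) := by
    have h5 : (I.S.A x ∘ fun q : E2 => ((0, q) : ℝ × E2)) 0 = I.S.ft x := I.S.A_zero x
    rw [h5]
    exact I.b_hasFDerivAt H459.invThm ξ (I.S.ft x)
  have h6 := (h4.comp (0 : E2) h3).sub_const (I.b ξ (I.S.ft x))
  rw [hasGradientAt_iff_hasFDerivAt]
  refine h6.congr_fderiv ?_
  ext u
  change I.G (I.S.ft x) (I.vel ξ (I.S.ft x)) (fderiv ℝ (I.S.A x) 0 (0, u)) = _
  rw [I.A_fderiv, ← E_kap, I.G_E, real_inner_comm, inner_pk_zero, InnerProductSpace.toDual_apply_apply,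
    real_inner_smul_left, real_inner_smul_left, real_inner_comm]

end Vale.Agent.P207.N4.H832
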