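import Vale.Agent.P207.N4.H266.Metr

/-!
# P207, all dimensions, theorem H, alternative (E): the smallest eigenvalue of the Jacobi operator

If at every point `c |v|² ≤ -<K v, v> ≤ A c |v|²` for some `c > 0` depending on the point, then `c`
may be chosen as a continuous function with the global bounds of `-K`.
-/

open Set Filter Topology Metric

noncomputable section

namespace Vale.Agent.P207.N4.H832.Cmp

/-- **the smallest eigenvalue as a continuous function** -/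
theorem exists_min {X V : Type*} [TopologicalSpace X] [NormedAddCommGroup V]
    [InnerProductSpace ℝ V] [FiniteDimensional ℝ V] [Nontrivial V] {K : X → V →L[ℝ] V}
    (hKc : Continuous K) {l u A : ℝ} (hA : 0 ≤ A)
    (hK : ∀ x v, l * ‖v‖ ^ 2 ≤ -inner ℝ (K x v) v ∧ -inner ℝ (K x v) v ≤ u * ‖v‖ ^ 2)
    (hR : ∀ x, ∃ c : ℝ, 0 < c ∧ ∀ v, c * ‖v‖ ^ 2 ≤ -inner ℝ (K x v) v ∧
      -inner ℝ (K x v) v ≤ A * c * ‖v‖ ^ 2) :
    ∃ f : X → ℝ, Continuous f ∧ (∀ x, l ≤ f x ∧ f x ≤ u) ∧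
      ∀ x v, f x * ‖v‖ ^ 2 ≤ -inner ℝ (K x v) v ∧ -inner ℝ (K x v) v ≤ A * f x * ‖v‖ ^ 2 := by
  obtain ⟨v₀, hv₀⟩ := (NormedSpace.sphere_nonempty (x := (0 : V)) (r := 1)).2 zero_le_one
  have hn₀ : ‖v₀‖ = 1 := by simpa using hv₀
  have hcont : Continuous (Function.uncurry fun (x : X) (v : V) => -inner ℝ (K x v) v) := by
    have h1 : Continuous fun q : X × V => K q.1 q.2 :=
      (hKc.comp continuous_fst).clm_apply continuous_snd
    exact (h1.inner continuous_snd).neg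
  have hne : ∀ x, ((fun v => -inner ℝ (K x v) v) '' sphere (0 : V) 1).Nonempty :=
    fun x => ⟨_, v₀, hv₀, rfl⟩
  have hlow : ∀ x c, (∀ v, c * ‖v‖ ^ 2 ≤ -inner ℝ (K x v) v) →
      ∀ b ∈ (fun v => -inner ℝ (K x v) v) '' sphere (0 : V) 1, c ≤ b := by
    rintro x c h b ⟨v, hv, rfl⟩
    have h1 := h v
    rwa [show ‖v‖ = 1 by simpa using hv, one_pow, mul_one] at h1
  have hbdd : ∀ x, BddBelow ((fun v => -inner ℝ (K x v) v) '' sphere (0 : V) 1) :=
    fun x => ⟨l, fun b hb => hlow x l (fun v => (hK x v).1) b hb⟩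
  refine ⟨fun x => sInf ((fun v => -inner ℝ (K x v) v) '' sphere (0 : V) 1),
    (isCompact_sphere (0 : V) 1).continuous_sInf hcont, fun x => ⟨?_, ?_⟩, fun x v => ⟨?_, ?_⟩⟩
  · exact le_csInf (hne x) (hlow x l fun v => (hK x v).1)
  · refine (csInf_le (hbdd x) ⟨v₀, hv₀, rfl⟩).trans ?_
    have h1 := (hK x v₀).2
    rwa [hn₀, one_pow, mul_one] at h1
  · rcases eq_or_ne v 0 with rfl | hv
    · simp
    have hv' : 0 < ‖v‖ := norm_pos_iff.2 hv
    have h1 := csInf_le (hbdd x) ⟨‖v‖⁻¹ • v, by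
      rw [mem_sphere_iff_norm, sub_zero, norm_smul, norm_inv, norm_norm, inv_mul_cancel₀ hv'.ne'],
      rfl⟩
    simp only [map_smul, real_inner_smul_left, real_inner_smul_right] at h1
    have h2 : -inner ℝ (K x v) v = -(‖v‖⁻¹ * (‖v‖⁻¹ * inner ℝ (K x v) v)) * ‖v‖ ^ 2 := by
      field_simp
    rw [h2]
    exact mul_le_mul_of_nonneg_right h1 (by positivity)
  · obtain ⟨c, hc, h⟩ := hR x
    refine (h v).2.trans (mul_le_mul_of_nonneg_right (mul_le_mul_of_nonneg_left ?_ hA)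
      (by positivity))
    exact le_csInf (hne x) (hlow x c fun v => (h v).1)

variable [Dim]

variable {Γ X B : Type} [Group Γ] [MetricSpace X] [ProperSpace X] [MulAction Γ X]
  [IsIsometricSMul Γ X] [TopologicalSpace B] [CompactSpace B] [T2Space B] [MulAction Γ B]
  [ContinuousConstSMul Γ B] {L : Leaf Γ X B}

theorem nontrivial_E2 : Nontrivial E2 := by
  obtain ⟨i, j, hij⟩ := exists_pair_ne (Fin Dim.m)
  exact ⟨EuclideanSpace.single i 1, 0, fun h => by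
    have := congrArg (fun v : E2 => v i) h
    simp at this⟩

/-- **the smallest eigenvalue of `-K`** -/
theorem exists_minK (M : Metr L) (hKc : Continuous M.K) {a b A : ℝ} (hA : 0 ≤ A)
    (hK : ∀ x v, a ^ 2 * ‖v‖ ^ 2 ≤ -inner ℝ (M.K x v) v ∧
      -inner ℝ (M.K x v) v ≤ b ^ 2 * ‖v‖ ^ 2)
    (hR : ∀ x, ∃ c : ℝ, 0 < c ∧ ∀ v, c * ‖v‖ ^ 2 ≤ -inner ℝ (M.K x v) v ∧
      -inner ℝ (M.K x v) v ≤ A * c * ‖v‖ ^ 2) :
    ∃ f : X → ℝ, Continuous f ∧ (∀ x, a ^ 2 ≤ f x ∧ f x ≤ b ^ 2) ∧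
      ∀ x v, f x * ‖v‖ ^ 2 ≤ -inner ℝ (M.K x v) v ∧
        -inner ℝ (M.K x v) v ≤ A * f x * ‖v‖ ^ 2 := by
  haveI := nontrivial_E2
  exact exists_min hKc hA hK hR

end Vale.Agent.P207.N4.H832.Cmp
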