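import Mathlib

/-!
# P207, all dimensions, theorem H, row (E2): the Riccati comparison with scalar functions

`U' = K - U²` with `U` symmetric, `f |v|² ≤ <K v, v> ≤ F |v|²`, `p' = f - p²`, `P' = F - P²`,
`p 0 ≤ U 0 ≤ P 0`. Then `p ≤ U ≤ P` on `[0, ∞)`.
-/

open Set Filter Topology Metric

noncomputable section

namespace Vale.Agent.P207.N4.H832.Cmp

variable {V : Type*} [NormedAddCommGroup V] [InnerProductSpace ℝ V]

/-- a symmetric operator with a nonnegative form kills the vectors on which the form is zero -/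
theorem inner_eq_zero_of_form {W : V →L[ℝ] V} (hs : ∀ v w, inner ℝ (W v) w = inner ℝ v (W w))
    (h0 : ∀ v, 0 ≤ inner ℝ (W v) v) {v : V} (hv : inner ℝ (W v) v = 0) (w : V) :
    inner ℝ (W v) w = 0 := by
  by_contra hne
  set a : ℝ := inner ℝ (W v) w with ha
  set c : ℝ := inner ℝ (W w) w with hc
  have hc0 : 0 ≤ c := h0 w
  have key : ∀ t : ℝ, 0 ≤ 2 * t * a + t ^ 2 * c := by
    intro t
    have h := h0 (v + t • w)
    have h1 : inner ℝ (W (v + t • w)) (v + t • w) = 2 * t * a + t ^ 2 * c := by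
      have h2 : inner ℝ (W w) v = a := by rw [hs, real_inner_comm]
      rw [map_add, map_smul, inner_add_left, inner_add_right, inner_add_right,
        real_inner_smul_left, real_inner_smul_left, real_inner_smul_right,
        real_inner_smul_right, hv, h2, ← ha, ← hc]
      ring
    rwa [h1] at h
  have h := key (-a / (1 + c))
  have h1 : 2 * (-a / (1 + c)) * a + (-a / (1 + c)) ^ 2 * c = -(a ^ 2 * (2 + c) / (1 + c) ^ 2) := by
    field_simp
    ring
  rw [h1] at h
  have h2 : 0 < a ^ 2 * (2 + c) / (1 + c) ^ 2 := by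
    have : 0 < a ^ 2 := by positivity
    positivity
  linarith

/-- **the comparison principle**: `W' = R - S W` with `W` symmetric, `R ≥ 0`, `W 0 ≥ 0`, `S`
bounded. Then `W ≥ 0`. -/
theorem form_nonneg [FiniteDimensional ℝ V] {W R S : ℝ → V →L[ℝ] V} {T C : ℝ}
    (hW : ∀ t, 0 ≤ t → HasDerivAt W (R t - S t ∘L W t) t)
    (hs : ∀ t, 0 ≤ t → ∀ v w, inner ℝ (W t v) w = inner ℝ v (W t w))
    (hS : ∀ t ∈ Icc 0 T, ‖S t‖ ≤ C)
    (hR : ∀ t, 0 ≤ t → ∀ v, 0 ≤ inner ℝ (R t v) v)
    (h0 : ∀ v, 0 ≤ inner ℝ (W 0 v) v) :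
    ∀ t ∈ Icc 0 T, ∀ v, 0 ≤ inner ℝ (W t v) v := by
  have hWc : ContinuousOn W (Icc 0 T) := fun t ht => (hW t ht.1).continuousAt.continuousWithinAt
  -- the strict statement
  have main : ∀ ε : ℝ, 0 < ε → ∀ t ∈ Icc 0 T, ∀ v : V, ‖v‖ = 1 →
      0 < inner ℝ (W t v) v + ε * Real.exp ((C + 1) * t) := by
    intro ε hε
    by_contra hcon
    push Not at hcon
    obtain ⟨t₁, ht₁, v₁, hv₁, hle₁⟩ := hcon
    set G : ℝ × V → ℝ := fun q => inner ℝ (W q.1 q.2) q.2 + ε * Real.exp ((C + 1) * q.1) with hG
    set D : Set (ℝ × V) := Icc 0 T ×ˢ sphere (0 : V) 1 with hD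
    have hDc : IsCompact D := isCompact_Icc.prod (isCompact_sphere 0 1)
    have hGc : ContinuousOn G D := by
      have h1 : ContinuousOn (fun q : ℝ × V => W q.1) D :=
        hWc.comp continuous_fst.continuousOn fun q hq => hq.1
      have h2 : ContinuousOn (fun q : ℝ × V => W q.1 q.2) D :=
        h1.clm_apply continuous_snd.continuousOn
      exact (h2.inner (𝕜 := ℝ) continuous_snd.continuousOn).add (by fun_prop)
    set Z : Set (ℝ × V) := D ∩ G ⁻¹' Iic 0 with hZ
    have hZc : IsCompact Z :=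
      hDc.of_isClosed_subset (hGc.preimage_isClosed_of_isClosed hDc.isClosed isClosed_Iic)
        inter_subset_left
    have hne : (Prod.fst '' Z).Nonempty :=
      ⟨t₁, (t₁, v₁), ⟨⟨ht₁, by simpa using hv₁⟩, hle₁⟩, rfl⟩
    obtain ⟨s₀, ⟨⟨s₀', v⟩, ⟨⟨hs₀, hv⟩, hG₀⟩, rfl⟩, hmin⟩ := (hZc.image continuous_fst).exists_isLeast hne
    simp only [mem_sphere_iff_norm, sub_zero] at hv
    simp only at hs₀ hmin
    have hG₀' : inner ℝ (W s₀' v) v + ε * Real.exp ((C + 1) * s₀') ≤ 0 := hG₀
    -- positivity before `s₀'`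
    have hpos : ∀ s, 0 ≤ s → s < s₀' → ∀ w : V, ‖w‖ = 1 →
        0 < inner ℝ (W s w) w + ε * Real.exp ((C + 1) * s) := by
      intro s h1 h2 w hw
      by_contra hn
      have h3 : s ∈ Prod.fst '' Z :=
        ⟨(s, w), ⟨⟨⟨h1, h2.le.trans hs₀.2⟩, by simpa using hw⟩, not_lt.1 hn⟩, rfl⟩
      exact absurd (hmin h3) (not_le.2 h2)
    have hs0 : 0 < s₀' := by
      rcases hs₀.1.eq_or_lt with h | h
      · exfalso
        rw [← h] at hG₀'
        have h1 := h0 v
        have h2 : 0 < ε * Real.exp ((C + 1) * 0) := by positivity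
        linarith
      · exact h
    set δ : ℝ := ε * Real.exp ((C + 1) * s₀') with hδ
    have hδ0 : 0 < δ := by positivity
    -- derivative along a fixed vector
    have hd : ∀ w : V, HasDerivAt (fun s => inner ℝ (W s w) w + ε * Real.exp ((C + 1) * s))
        (inner ℝ ((R s₀' - S s₀' ∘L W s₀') w) w + (C + 1) * δ) s₀' := by
      intro w
      have h1 : HasDerivAt (fun s => W s w) ((R s₀' - S s₀' ∘L W s₀') w) s₀' := by
        have := (hW s₀' hs₀.1).clm_apply (hasDerivAt_const s₀' w)
        simpa using this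
      have h2 : HasDerivAt (fun s => inner ℝ (W s w) w)
          (inner ℝ ((R s₀' - S s₀' ∘L W s₀') w) w) s₀' := by
        have := h1.inner ℝ (hasDerivAt_const s₀' w)
        simpa using this
      have h3 : HasDerivAt (fun s => ε * Real.exp ((C + 1) * s)) ((C + 1) * δ) s₀' := by
        have h4 := ((hasDerivAt_id s₀').const_mul (C + 1)).exp.const_mul ε
        simp only [id, mul_one] at h4
        refine h4.congr_deriv ?_
        rw [hδ]; ring
      exact h2.add h3
    -- the form of `W s₀' + δ` is nonnegative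
    have hnn1 : ∀ w : V, ‖w‖ = 1 → 0 ≤ inner ℝ (W s₀' w) w + δ := by
      intro w hw
      have hc := (hd w).continuousAt
      have h1 : Tendsto (fun s => inner ℝ (W s w) w + ε * Real.exp ((C + 1) * s)) (𝓝[<] s₀')
          (𝓝 (inner ℝ (W s₀' w) w + δ)) := hc.tendsto.mono_left nhdsWithin_le_nhds
      refine ge_of_tendsto h1 ?_
      filter_upwards [Ioo_mem_nhdsLT hs0] with s hs'
      exact (hpos s hs'.1.le hs'.2 w hw).le
    have hnn : ∀ w : V, 0 ≤ inner ℝ ((W s₀' + δ • ContinuousLinearMap.id ℝ V) w) w := by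
      intro w
      rcases eq_or_ne w 0 with rfl | hw
      · simp
      have hw' : 0 < ‖w‖ := norm_pos_iff.2 hw
      have h1 := hnn1 (‖w‖⁻¹ • w) (by rw [norm_smul, norm_inv, norm_norm, inv_mul_cancel₀ hw'.ne'])
      rw [map_smul, real_inner_smul_left, real_inner_smul_right] at h1
      have h2 : inner ℝ ((W s₀' + δ • ContinuousLinearMap.id ℝ V) w) w
          = ‖w‖ ^ 2 * (‖w‖⁻¹ * (‖w‖⁻¹ * inner ℝ (W s₀' w) w) + δ) := by
        simp only [add_apply, smul_apply,
          ContinuousLinearMap.id_apply, inner_add_left, real_inner_smul_left,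
          real_inner_self_eq_norm_sq]
        field_simp
      rw [h2]
      positivity
    have hz : inner ℝ ((W s₀' + δ • ContinuousLinearMap.id ℝ V) v) v = 0 := by
      refine le_antisymm ?_ (hnn v)
      simp only [add_apply, smul_apply,
        ContinuousLinearMap.id_apply, inner_add_left, real_inner_smul_left,
        real_inner_self_eq_norm_sq, hv]
      linarith
    have hker : (W s₀' + δ • ContinuousLinearMap.id ℝ V) v = 0 := by
      have hsym : ∀ a b, inner ℝ ((W s₀' + δ • ContinuousLinearMap.id ℝ V) a) b =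
          inner ℝ a ((W s₀' + δ • ContinuousLinearMap.id ℝ V) b) := by
        intro a b
        simp only [add_apply, smul_apply,
          ContinuousLinearMap.id_apply, inner_add_left, inner_add_right, real_inner_smul_left,
          real_inner_smul_right, hs s₀' hs₀.1]
      have h1 := inner_eq_zero_of_form hsym hnn hz ((W s₀' + δ • ContinuousLinearMap.id ℝ V) v)
      exact inner_self_eq_zero.1 h1
    have hWv : W s₀' v = -(δ • v) := by
      have h1 : W s₀' v + δ • v = 0 := by simpa using hker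
      exact eq_neg_of_add_eq_zero_left h1
    -- the derivative is positive
    have hder : 0 < inner ℝ ((R s₀' - S s₀' ∘L W s₀') v) v + (C + 1) * δ := by
      have h1 : inner ℝ ((R s₀' - S s₀' ∘L W s₀') v) v
          = inner ℝ (R s₀' v) v + δ * inner ℝ (S s₀' v) v := by
        simp only [sub_apply, ContinuousLinearMap.coe_comp,
          Function.comp_apply, hWv, map_neg, map_smul, inner_sub_left, inner_neg_left,
          real_inner_smul_left]
        ring
      have h2 := hR s₀' hs₀.1 v
      have h3 : -C ≤ inner ℝ (S s₀' v) v := by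
        have h4 := abs_real_inner_le_norm (S s₀' v) v
        have h5 := (S s₀').le_opNorm v
        have h6 := hS s₀' hs₀
        rw [hv, mul_one] at h4 h5
        linarith [(abs_le.1 h4).1]
      rw [h1]
      nlinarith
    -- but the function is positive before `s₀'`
    have hsl := hasDerivAt_iff_tendsto_slope.1 (hd v)
    have h1 : ∀ᶠ s in 𝓝[<] s₀', 0 < slope (fun s => inner ℝ (W s v) v +
        ε * Real.exp ((C + 1) * s)) s₀' s :=
      (hsl.mono_left (nhdsWithin_mono _ fun s (hs' : s < s₀') => hs'.ne)).eventually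
        (lt_mem_nhds hder)
    obtain ⟨s, h2, h3⟩ := (h1.and (Ioo_mem_nhdsLT hs0)).exists
    have h4 := hpos s h3.1.le h3.2 v hv
    rw [slope_def_field] at h2
    have h5 : (inner ℝ (W s v) v + ε * Real.exp ((C + 1) * s) -
        (inner ℝ (W s₀' v) v + ε * Real.exp ((C + 1) * s₀'))) / (s - s₀') ≤ 0 := by
      refine div_nonpos_of_nonneg_of_nonpos ?_ (by linarith [h3.2])
      have h6 : inner ℝ (W s₀' v) v + ε * Real.exp ((C + 1) * s₀') ≤ 0 := hG₀'
      linarith
    linarith
  intro t ht v
  rcases eq_or_ne v 0 with rfl | hv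
  · simp
  have hv' : 0 < ‖v‖ := norm_pos_iff.2 hv
  have h1 : 0 ≤ inner ℝ (W t (‖v‖⁻¹ • v)) (‖v‖⁻¹ • v) := by
    refine le_of_forall_pos_le_add fun η hη => ?_
    have h2 := main (η / Real.exp ((C + 1) * t)) (by positivity) t ht (‖v‖⁻¹ • v)
      (by rw [norm_smul, norm_inv, norm_norm, inv_mul_cancel₀ hv'.ne'])
    rw [div_mul_cancel₀ _ (Real.exp_pos _).ne'] at h2
    exact h2.le
  rw [map_smul, real_inner_smul_left, real_inner_smul_right] at h1
  have h2 : inner ℝ (W t v) v = ‖v‖ ^ 2 * (‖v‖⁻¹ * (‖v‖⁻¹ * inner ℝ (W t v) v)) := by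
    field_simp
  rw [h2]
  positivity

variable [FiniteDimensional ℝ V] {U K : ℝ → V →L[ℝ] V} {f F p P : ℝ → ℝ}

/-- **Riccati comparison, lower bound** -/
theorem ric_lower (hU : ∀ t, 0 ≤ t → HasDerivAt U (K t - U t ∘L U t) t)
    (hs : ∀ t, 0 ≤ t → ∀ v w, inner ℝ (U t v) w = inner ℝ v (U t w))
    (hK : ∀ t, 0 ≤ t → ∀ v, f t * ‖v‖ ^ 2 ≤ inner ℝ (K t v) v)
    (hp : ∀ t, 0 ≤ t → HasDerivAt p (f t - p t ^ 2) t)
    (h0 : ∀ v, p 0 * ‖v‖ ^ 2 ≤ inner ℝ (U 0 v) v) :
    ∀ t, 0 ≤ t → ∀ v, p t * ‖v‖ ^ 2 ≤ inner ℝ (U t v) v := by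
  intro T hT v
  have hUc : ContinuousOn U (Icc 0 T) := fun t ht => (hU t ht.1).continuousAt.continuousWithinAt
  have hpc : ContinuousOn p (Icc 0 T) := fun t ht => (hp t ht.1).continuousAt.continuousWithinAt
  have hSc : ContinuousOn (fun t => ‖U t + p t • ContinuousLinearMap.id ℝ V‖) (Icc 0 T) :=
    (hUc.add (hpc.smul continuousOn_const)).norm
  obtain ⟨C, hC⟩ := isCompact_Icc.bddAbove_image hSc
  have h := form_nonneg (W := fun t => U t - p t • ContinuousLinearMap.id ℝ V)
    (R := fun t => K t - f t • ContinuousLinearMap.id ℝ V)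
    (S := fun t => U t + p t • ContinuousLinearMap.id ℝ V) (T := T) (C := C)
    (fun t ht => by
      refine ((hU t ht).sub ((hp t ht).smul_const (ContinuousLinearMap.id ℝ V))).congr_deriv ?_
      ext w
      simp only [sub_apply, ContinuousLinearMap.coe_comp, Function.comp_apply,
        smul_apply, ContinuousLinearMap.id_apply, add_apply, map_sub,
        map_smul]
      module)
    (fun t ht a b => by
      simp only [sub_apply, smul_apply,
        ContinuousLinearMap.id_apply, inner_sub_left, inner_sub_right, real_inner_smul_left,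
        real_inner_smul_right, hs t ht])
    (fun t ht => hC ⟨t, ht, rfl⟩)
    (fun t ht a => by
      simp only [sub_apply, smul_apply,
        ContinuousLinearMap.id_apply, inner_sub_left, real_inner_smul_left,
        real_inner_self_eq_norm_sq]
      linarith [hK t ht a])
    (fun a => by
      simp only [sub_apply, smul_apply,
        ContinuousLinearMap.id_apply, inner_sub_left, real_inner_smul_left,
        real_inner_self_eq_norm_sq]
      linarith [h0 a])
    T ⟨hT, le_rfl⟩ v
  simp only [sub_apply, smul_apply,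
    ContinuousLinearMap.id_apply, inner_sub_left, real_inner_smul_left,
    real_inner_self_eq_norm_sq] at h
  linarith

/-- **Riccati comparison, upper bound** -/
theorem ric_upper (hU : ∀ t, 0 ≤ t → HasDerivAt U (K t - U t ∘L U t) t)
    (hs : ∀ t, 0 ≤ t → ∀ v w, inner ℝ (U t v) w = inner ℝ v (U t w))
    (hK : ∀ t, 0 ≤ t → ∀ v, inner ℝ (K t v) v ≤ F t * ‖v‖ ^ 2)
    (hP : ∀ t, 0 ≤ t → HasDerivAt P (F t - P t ^ 2) t)
    (h0 : ∀ v, inner ℝ (U 0 v) v ≤ P 0 * ‖v‖ ^ 2) :
    ∀ t, 0 ≤ t → ∀ v, inner ℝ (U t v) v ≤ P t * ‖v‖ ^ 2 := by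
  intro T hT v
  have hUc : ContinuousOn U (Icc 0 T) := fun t ht => (hU t ht.1).continuousAt.continuousWithinAt
  have hpc : ContinuousOn P (Icc 0 T) := fun t ht => (hP t ht.1).continuousAt.continuousWithinAt
  have hSc : ContinuousOn (fun t => ‖P t • ContinuousLinearMap.id ℝ V + U t‖) (Icc 0 T) :=
    ((hpc.smul continuousOn_const).add hUc).norm
  obtain ⟨C, hC⟩ := isCompact_Icc.bddAbove_image hSc
  have h := form_nonneg (W := fun t => P t • ContinuousLinearMap.id ℝ V - U t)
    (R := fun t => F t • ContinuousLinearMap.id ℝ V - K t)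
    (S := fun t => P t • ContinuousLinearMap.id ℝ V + U t) (T := T) (C := C)
    (fun t ht => by
      refine (((hP t ht).smul_const (ContinuousLinearMap.id ℝ V)).sub (hU t ht)).congr_deriv ?_
      ext w
      simp only [sub_apply, ContinuousLinearMap.coe_comp, Function.comp_apply,
        smul_apply, ContinuousLinearMap.id_apply, add_apply, map_sub,
        map_smul]
      module)
    (fun t ht a b => by
      simp only [sub_apply, smul_apply,
        ContinuousLinearMap.id_apply, inner_sub_left, inner_sub_right, real_inner_smul_left,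
        real_inner_smul_right, hs t ht])
    (fun t ht => hC ⟨t, ht, rfl⟩)
    (fun t ht a => by
      simp only [sub_apply, smul_apply,
        ContinuousLinearMap.id_apply, inner_sub_left, real_inner_smul_left,
        real_inner_self_eq_norm_sq]
      linarith [hK t ht a])
    (fun a => by
      simp only [sub_apply, smul_apply,
        ContinuousLinearMap.id_apply, inner_sub_left, real_inner_smul_left,
        real_inner_self_eq_norm_sq]
      linarith [h0 a])
    T ⟨hT, le_rfl⟩ v
  simp only [sub_apply, smul_apply,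
    ContinuousLinearMap.id_apply, inner_sub_left, real_inner_smul_left,
    real_inner_self_eq_norm_sq] at h
  linarith

end Vale.Agent.P207.N4.H832.Cmp
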